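import Vale.Agent.P091.T.H120.Rep3

/-! # P091, row E1-B: the representation of a letter, phase form, pointwise in `x` and `y`

The slow phase `e(-δ y)` of the letter is taken at the leaf `x` of the x-side. -/

set_option autoImplicit false

open Finset

namespace Vale.Agent.P091.T.H219

open Vale.Agent.P091.Spec (e nd avC av)
open Vale.Agent.P065.Ent hiding cE
open Vale.Agent.P091.T.H522 (em lo)
open Vale.Agent.P091.T.H120

noncomputable section

variable {n b : ℕ}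

/-- coefficient of the list element `i` and of the values `q`, slow phase at `x` -/
def gP (J : List (Un n b)) (j : ℕ) (E : Finset (ZMod (2 ^ (n + b - j)))) (r : ZMod (2 ^ (n + b)))
    (i : ZMod (2 ^ (n + b - j))) (q : QJ J) (x : ℕ) : ℂ :=
  (phiJ J j E)⁻¹ * ∑ ω, if rd n b j (RJ J ω) ∈ E ∧ rd n b j r + rd n b j (RJ J ω) = i then
    (wtJ J ω : ℂ) * psiJ J ω q * e (-(dl j r (RJ J ω) * x)) else 0

/-- **(1)** size of the coefficients -/
theorem norm_gP_le {J : List (Un n b)} (hJ : ∀ k ∈ J, IsProb k.P) (j : ℕ)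
    (E : Finset (ZMod (2 ^ (n + b - j)))) (r : ZMod (2 ^ (n + b)))
    (i : ZMod (2 ^ (n + b - j))) (q : QJ J) (x : ℕ) :
    ‖gP J j E r i q x‖ ≤ ‖phiJ J j E‖⁻¹ * pE J j E r i := by
  unfold gP
  rw [norm_mul, norm_inv, pE_eq]
  refine mul_le_mul_of_nonneg_left ?_ (inv_nonneg.2 (norm_nonneg _))
  refine (norm_sum_le _ _).trans (sum_le_sum fun ω _ => ?_)
  split_ifs
  · rw [norm_mul, norm_mul, H120.norm_e, norm_psiJ, Complex.norm_real,
      Real.norm_of_nonneg (wtJ_nonneg hJ ω)]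
    simp
  · simp

/-- the sum over the values, exact -/
theorem sum_gP_ker {J : List (Un n b)} {j : ℕ} (hj : j ≤ n + b)
    (E : Finset (ZMod (2 ^ (n + b - j)))) (r : ZMod (2 ^ (n + b)))
    (i : ZMod (2 ^ (n + b - j))) (x y : ℕ) :
    ∑ q : QJ J, gP J j E r i q x * (kerJ J y q : ℂ) * ch n b (-(em (n + b) j i * y)) =
      (phiJ J j E)⁻¹ * ∑ ω, if rd n b j (RJ J ω) ∈ E ∧ rd n b j r + rd n b j (RJ J ω) = i then
        (wtJ J ω : ℂ) * ccJ J ω * (ch n b (-(r * y)) * e (dl j r (RJ J ω) * (y - x))) else 0 := by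
  classical
  have h1 : ∀ q : QJ J, gP J j E r i q x * (kerJ J y q : ℂ) * ch n b (-(em (n + b) j i * y)) =
      (phiJ J j E)⁻¹ * ∑ ω, if rd n b j (RJ J ω) ∈ E ∧ rd n b j r + rd n b j (RJ J ω) = i then
        (wtJ J ω : ℂ) * e (-(dl j r (RJ J ω) * x)) * ch n b (-(em (n + b) j i * y)) *
          ((kerJ J y q : ℂ) * psiJ J ω q) else 0 := by
    intro q
    unfold gP
    rw [mul_assoc, mul_assoc, sum_mul]
    congr 1
    refine sum_congr rfl fun ω _ => ?_
    split_ifs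
    · ring
    · ring
  rw [sum_congr rfl fun q _ => h1 q, ← mul_sum, sum_comm]
  congr 1
  refine sum_congr rfl fun ω _ => ?_
  split_ifs with h
  · rw [← mul_sum, sum_psi_ker, ch_split hj r (RJ J ω) y, h.2]
    have h2 : e (-(dl j r (RJ J ω) * x)) = e (-dl j r (RJ J ω) * y) *
        e (dl j r (RJ J ω) * (y - x)) := by
      rw [← H120.e_add]; congr 1; ring
    rw [h2]
    ring
  · simp

/-- the slow phase over a node -/
theorem dl_mul_sub_le {j j' : ℕ} (hj : j ≤ j') (hj' : j' ≤ n) (r R : ZMod (2 ^ (n + b)))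
    {a' x y : ℕ} (hx : x ∈ nd n j' a') (hy : y ∈ nd n j' a') :
    |dl j r R * ((y : ℝ) - x)| ≤ 2 / 2 ^ b / 2 ^ (j' - j) := by
  have h0 := dl_mul_le (hj.trans hj') r R
  have h1 : |(y : ℝ) - x| ≤ 2 ^ (n - j') := by
    unfold nd at hx hy
    rw [mem_Ico, add_mul, one_mul] at hx hy
    have h2 : (y : ℝ) ≤ x + 2 ^ (n - j') := by
      have : y ≤ x + 2 ^ (n - j') := by omega
      exact_mod_cast this
    have h3 : (x : ℝ) ≤ y + 2 ^ (n - j') := by
      have : x ≤ y + 2 ^ (n - j') := by omega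
      exact_mod_cast this
    rw [abs_le]
    constructor <;> linarith
  rw [abs_mul, abs_of_nonneg (dl_nonneg j r R), le_div_iff₀ (by positivity)]
  have h4 : (2 : ℝ) ^ (n - j) = 2 ^ (n - j') * 2 ^ (j' - j) := by
    rw [← pow_add]; congr 1; omega
  push_cast at h0
  rw [h4] at h0
  have h5 : dl j r R * |(y : ℝ) - x| ≤ dl j r R * 2 ^ (n - j') :=
    mul_le_mul_of_nonneg_left h1 (dl_nonneg j r R)
  calc dl j r R * |(y : ℝ) - x| * 2 ^ (j' - j)
      ≤ dl j r R * 2 ^ (n - j') * 2 ^ (j' - j) := by gcongr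
    _ ≤ _ := by rw [mul_assoc]; exact h0

/-- **(2)** the kernel of one list element is the kernel of the letter, pointwise in `x` and `y`,
`x` and `y` in the same node below the activation node -/
theorem phase_main {J : List (Un n b)} (hJ : ∀ k ∈ J, IsProb k.P) (hJ' : ∀ k ∈ J, IsProb k.ρ)
    {j j' : ℕ} (hj : j ≤ j') (hj' : j' ≤ n) (E : Finset (ZMod (2 ^ (n + b - j))))
    (r : ZMod (2 ^ (n + b))) (i : ZMod (2 ^ (n + b - j))) {a' x y : ℕ}
    (hx : x ∈ nd n j' a') (hy : y ∈ nd n j' a') :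
    ‖(∑ q : QJ J, gP J j E r i q x * (kerJ J y q : ℂ) * ch n b (-(em (n + b) j i * y))) -
        cE J j E r i * ch n b (-(r * y))‖ ≤
      ‖phiJ J j E‖⁻¹ * pE J j E r i * (4 * Real.pi / 2 ^ b / 2 ^ (j' - j)) := by
  classical
  rw [sum_gP_ker ((hj.trans hj').trans (Nat.le_add_right n b))]
  unfold cE
  rw [mul_assoc, ← mul_sub, sum_mul, ← sum_sub_distrib, norm_mul, norm_inv, mul_assoc, pE_eq,
    sum_mul]
  refine mul_le_mul_of_nonneg_left ?_ (inv_nonneg.2 (norm_nonneg _))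
  refine (norm_sum_le _ _).trans (sum_le_sum fun ω _ => ?_)
  split_ifs with h
  · have h1 : (wtJ J ω : ℂ) * ccJ J ω * (ch n b (-(r * y)) * e (dl j r (RJ J ω) * (y - x))) -
        (wtJ J ω : ℂ) * ccJ J ω * ch n b (-(r * y)) =
        (wtJ J ω : ℂ) * ccJ J ω * ch n b (-(r * y)) * (e (dl j r (RJ J ω) * (y - x)) - 1) := by
      ring
    rw [h1, norm_mul, norm_mul, norm_mul, norm_ch, mul_one, Complex.norm_real,
      Real.norm_of_nonneg (wtJ_nonneg hJ ω), mul_assoc]
    refine mul_le_mul_of_nonneg_left ?_ (wtJ_nonneg hJ ω)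
    have h2 := H120.norm_e_sub_one_le (dl j r (RJ J ω) * ((y : ℝ) - x))
    have h3 := dl_mul_sub_le hj hj' r (RJ J ω) hx hy
    calc ‖ccJ J ω‖ * ‖e (dl j r (RJ J ω) * ((y : ℝ) - x)) - 1‖
        ≤ 1 * (2 * Real.pi * (2 / 2 ^ b / 2 ^ (j' - j))) := by
          refine mul_le_mul (norm_ccJ_le hJ' ω) (h2.trans ?_) (norm_nonneg _) zero_le_one
          exact mul_le_mul_of_nonneg_left h3 (by positivity)
      _ = _ := by ring
  · simp

/-- **(3)** the coefficients of the letter add up to one -/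
theorem sum_cE {J : List (Un n b)} {j : ℕ} {E : Finset (ZMod (2 ^ (n + b - j)))}
    (hφ : phiJ J j E ≠ 0) (r : ZMod (2 ^ (n + b))) : ∑ i, cE J j E r i = 1 := by
  classical
  unfold cE
  rw [← mul_sum, sum_comm]
  have h1 : ∀ ω : QJ J, ∑ i, (if rd n b j (RJ J ω) ∈ E ∧ rd n b j r + rd n b j (RJ J ω) = i then
      (wtJ J ω : ℂ) * ccJ J ω else 0) =
      if rd n b j (RJ J ω) ∈ E then (wtJ J ω : ℂ) * ccJ J ω else 0 := by
    intro ω
    by_cases h : rd n b j (RJ J ω) ∈ E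
    · simp only [h, true_and, if_true]
      rw [sum_ite_eq univ (rd n b j r + rd n b j (RJ J ω)) fun _ => _, if_pos (mem_univ _)]
    · simp [h]
  rw [sum_congr rfl fun ω _ => h1 ω]
  exact inv_mul_cancel₀ hφ

end

end Vale.Agent.P091.T.H219
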